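import Mathlib.Data.Set.Image
import Mathlib.Data.Int.Basic
import Mathlib.Data.List.Range

namespace Vale.Agent.P062

/-- The Snaky hexomino. -/
def snaky : Set (ℤ × ℤ) := {(0, 0), (1, 0), (2, 0), (3, 0), (3, 1), (4, 1)}

/-- `C` is an allowed copy `t + R(S)` of Snaky, `R` one of the eight signed permutation matrices:
`R (x, y) = (a x, b y)` or `R (x, y) = (a y, b x)` with signs `a, b`. -/
def IsCopy (C : Set (ℤ × ℤ)) : Prop :=
  ∃ (t : ℤ × ℤ) (a b : ℤ), (a = 1 ∨ a = -1) ∧ (b = 1 ∨ b = -1) ∧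
    (C = (fun p : ℤ × ℤ => (t.1 + a * p.1, t.2 + b * p.2)) '' snaky ∨
     C = (fun p : ℤ × ℤ => (t.1 + a * p.2, t.2 + b * p.1)) '' snaky)

/-- In the play `x` (turn `i` claims the cell `x i`; Maker has the even turns, Breaker the odd
ones), turn `i` is legal on the board `D`: it claims a cell of `D` not claimed before. -/
def Legal (D : Set (ℤ × ℤ)) (x : ℕ → ℤ × ℤ) (i : ℕ) : Prop :=
  x i ∈ D ∧ ∀ j < i, x j ≠ x i

/-- Maker has a strategy `σ` (a function of the list of all cells claimed so far) on the initially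
empty board `D` that wins within `N` of its own turns: in every play in which Maker follows `σ` and
Breaker moves legally whenever an unclaimed cell of `D` is left, there is `n ≤ N` such that all
turns up to Maker's `n`-th turn are legal and Maker's first `n` cells contain an allowed copy. -/
def MakerWinsWithin (D : Set (ℤ × ℤ)) (N : ℕ) : Prop :=
  ∃ σ : List (ℤ × ℤ) → ℤ × ℤ, ∀ x : ℕ → ℤ × ℤ,
    (∀ k, x (2 * k) = σ ((List.range (2 * k)).map x)) →
    (∀ k, (∃ q ∈ D, ∀ j < 2 * k + 1, x j ≠ q) → Legal D x (2 * k + 1)) →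
    ∃ n ≤ N, (∀ i, i + 1 < 2 * n → Legal D x i) ∧
      ∃ C, IsCopy C ∧ ∀ c ∈ C, ∃ k < n, x (2 * k) = c

end Vale.Agent.P062
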