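import Mathlib.Data.Set.Image
import Mathlib.Data.Set.Function
import Mathlib.Tactic.Common
import Mathlib.Tactic.Tauto
import Mathlib.Data.Finset.Card
import Vale.Agent.P062.Defs

namespace Vale.Agent.P062

/-- Abstract bounded Maker win: Maker owns `M`, may play in `F`. -/
def W {α : Type} (H : Set α → Prop) : ℕ → Set α → Set α → Prop
  | 0, _, _ => False
  | h + 1, M, F => ∃ p ∈ F, H (insert p M) ∨
      (W H h (insert p M) F ∧ ∀ q, q ∉ insert p M → W H h (insert p M) (F \ {q}))

theorem W.mono {α : Type} {H : Set α → Prop} (hH : ∀ M M', M ⊆ M' → H M → H M') :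
    ∀ (h : ℕ) (M M' F F' : Set α), M ⊆ M' → F ⊆ F' → W H h M F → W H h M' F'
  | 0, _, _, _, _, _, _, w => w
  | h + 1, M, M', F, F', hM, hF, ⟨p, hp, w⟩ => by
    have hi : insert p M ⊆ insert p M' := Set.insert_subset_insert hM
    refine ⟨p, hF hp, ?_⟩
    rcases w with w | ⟨w1, w2⟩
    · exact Or.inl (hH _ _ hi w)
    · refine Or.inr ⟨W.mono hH h _ _ _ _ hi hF w1, fun q hq => ?_⟩
      exact W.mono hH h _ _ _ _ hi (Set.sdiff_subset_sdiff_left hF) (w2 q (fun h' => hq (hi h')))

theorem W.succ {α : Type} {H : Set α → Prop} :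
    ∀ (h : ℕ) (M F : Set α), W H h M F → W H (h + 1) M F
  | 0, _, _, w => w.elim
  | h + 1, M, F, ⟨p, hp, w⟩ => by
    refine ⟨p, hp, ?_⟩
    rcases w with w | ⟨w1, w2⟩
    · exact Or.inl w
    · exact Or.inr ⟨W.succ h _ _ w1, fun q hq => W.succ h _ _ (w2 q hq)⟩

theorem W.le {α : Type} {H : Set α → Prop} {h k : ℕ} (hk : h ≤ k) {M F : Set α}
    (w : W H h M F) : W H k M F := by
  induction hk with
  | refl => exact w
  | step _ ih => exact W.succ _ _ _ ih

theorem W.map {α β : Type} {H : Set α → Prop} {K : Set β → Prop} (φ : α → β)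
    (hφ : Function.Injective φ) (X : Set α) (hX : ∀ M, M ⊆ X → H M → K (φ '' M)) :
    ∀ (h : ℕ) (M F : Set α), M ⊆ X → F ⊆ X → W H h M F → W K h (φ '' M) (φ '' F)
  | 0, _, _, _, _, w => w
  | h + 1, M, F, hM, hF, ⟨p, hp, w⟩ => by
    have hi : insert p M ⊆ X := Set.insert_subset (hF hp) hM
    refine ⟨φ p, Set.mem_image_of_mem φ hp, ?_⟩
    rw [← Set.image_insert_eq]
    rcases w with w | ⟨w1, w2⟩
    · exact Or.inl (hX _ hi w)
    · have w1' := W.map φ hφ X hX h _ _ hi hF w1
      refine Or.inr ⟨w1', fun q hq => ?_⟩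
      by_cases hr : ∃ a, φ a = q
      · obtain ⟨a, rfl⟩ := hr
        have ha : a ∉ insert p M := fun h' => hq (Set.mem_image_of_mem φ h')
        have := W.map φ hφ X hX h _ _ hi (Set.sdiff_subset.trans hF) (w2 a ha)
        rwa [Set.image_sdiff hφ, Set.image_singleton] at this
      · have : φ '' F \ {q} = φ '' F := by
          apply Set.sdiff_singleton_eq_self
          rintro ⟨a, _, ha⟩
          exact hr ⟨a, ha⟩
        rwa [this]

/-- `M` contains an allowed copy. -/
def HasCopy (M : Set (ℤ × ℤ)) : Prop := ∃ C, IsCopy C ∧ C ⊆ M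

theorem HasCopy.mono (M M' : Set (ℤ × ℤ)) (h : M ⊆ M') : HasCopy M → HasCopy M' :=
  fun ⟨C, h1, h2⟩ => ⟨C, h1, h2.trans h⟩

def Mset (x : ℕ → ℤ × ℤ) (k : ℕ) : Set (ℤ × ℤ) := {c | ∃ j < k, x (2 * j) = c}
def Bset (x : ℕ → ℤ × ℤ) (k : ℕ) : Set (ℤ × ℤ) := {c | ∃ j < k, x (2 * j + 1) = c}

def GoodMove (D : Set (ℤ × ℤ)) (r : ℕ) (M B : Set (ℤ × ℤ)) (p : ℤ × ℤ) : Prop :=
  p ∈ D ∧ p ∉ M ∧ p ∉ B ∧
    (HasCopy (insert p M) ∨ ∀ q, q ∉ insert p M → W HasCopy r (insert p M) ((D \ B) \ {q}))

noncomputable def strat (D : Set (ℤ × ℤ)) (N : ℕ) (l : List (ℤ × ℤ)) : ℤ × ℤ :=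
  Classical.epsilon (GoodMove D (N - l.length / 2 - 1)
    (Mset (fun i => l.getD i (0, 0)) (l.length / 2)) (Bset (fun i => l.getD i (0, 0)) (l.length / 2)))

theorem strat_eq (D : Set (ℤ × ℤ)) (N : ℕ) (x : ℕ → ℤ × ℤ) (k : ℕ) :
    strat D N ((List.range (2 * k)).map x) =
      Classical.epsilon (GoodMove D (N - k - 1) (Mset x k) (Bset x k)) := by
  have hl : ((List.range (2 * k)).map x).length / 2 = k := by simp
  have hg : ∀ i, i < 2 * k → ((List.range (2 * k)).map x).getD i (0, 0) = x i := by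
    intro i hi
    simp [List.getD, hi]
  unfold strat
  rw [hl]
  congr 2
  · ext c
    constructor
    · rintro ⟨j, hj, e⟩
      exact ⟨j, hj, by rw [← e]; exact (hg _ (by omega)).symm⟩
    · rintro ⟨j, hj, e⟩
      exact ⟨j, hj, by rw [← e]; exact hg _ (by omega)⟩
  · ext c
    constructor
    · rintro ⟨j, hj, e⟩
      exact ⟨j, hj, by rw [← e]; exact (hg _ (by omega)).symm⟩
    · rintro ⟨j, hj, e⟩
      exact ⟨j, hj, by rw [← e]; exact hg _ (by omega)⟩

theorem mem_of_lt (x : ℕ → ℤ × ℤ) (k j : ℕ) (hj : j < 2 * k) : x j ∈ Mset x k ∨ x j ∈ Bset x k := by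
  obtain ⟨i, rfl | rfl⟩ : ∃ i, j = 2 * i ∨ j = 2 * i + 1 := ⟨j / 2, by omega⟩
  · exact Or.inl ⟨i, by omega, rfl⟩
  · exact Or.inr ⟨i, by omega, rfl⟩

theorem makerWins_of_W (D : Set (ℤ × ℤ)) (N : ℕ)
    (hD : ∀ (x : ℕ → ℤ × ℤ) (m : ℕ), m < 2 * N → ∃ q ∈ D, ∀ j < m, x j ≠ q)
    (w : W HasCopy N ∅ D) : MakerWinsWithin D N := by
  refine ⟨strat D N, fun x hx hb => ?_⟩
  have key : ∀ k, k ≤ N →
      (∃ n ≤ k, (∀ i, i + 1 < 2 * n → Legal D x i) ∧ HasCopy (Mset x n)) ∨
      ((∀ i, i < 2 * k → Legal D x i) ∧ W HasCopy (N - k) (Mset x k) (D \ Bset x k)) := by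
    intro k
    induction k with
    | zero =>
      intro _
      refine Or.inr ⟨fun i hi => absurd hi (by omega), ?_⟩
      refine W.mono HasCopy.mono _ _ _ _ _ (Set.empty_subset _) ?_ w
      intro c hc
      exact ⟨hc, by rintro ⟨j, hj, _⟩; omega⟩
    | succ k ih =>
      intro hk
      rcases ih (by omega) with ⟨n, hn, h1⟩ | ⟨hl, hw⟩
      · exact Or.inl ⟨n, by omega, h1⟩
      · have e0 : N - k = (N - k - 1) + 1 := by omega
        rw [e0] at hw
        clear e0
        obtain ⟨p, hp, hw⟩ := hw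
        have hex : ∃ p, GoodMove D (N - k - 1) (Mset x k) (Bset x k) p := by
          by_cases hpm : p ∈ Mset x k
          · obtain ⟨q, hq, hq2⟩ := hD x (2 * k) (by omega)
            have hqM : q ∉ Mset x k := by
              rintro ⟨j, hj, e⟩
              exact hq2 _ (by omega) e
            have hqB : q ∉ Bset x k := by
              rintro ⟨j, hj, e⟩
              exact hq2 _ (by omega) e
            have hsub : insert p (Mset x k) ⊆ insert q (Mset x k) := by
              rw [Set.insert_eq_of_mem hpm]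
              exact Set.subset_insert _ _
            refine ⟨q, hq, hqM, hqB, ?_⟩
            rcases hw with hw | ⟨_, hw⟩
            · exact Or.inl (HasCopy.mono _ _ hsub hw)
            · refine Or.inr fun r hr => ?_
              exact W.mono HasCopy.mono _ _ _ _ _ hsub subset_rfl (hw r fun h' => hr (hsub h'))
          · refine ⟨p, hp.1, hpm, hp.2, ?_⟩
            rcases hw with hw | ⟨_, hw⟩
            · exact Or.inl hw
            · exact Or.inr hw
        have hg := Classical.epsilon_spec hex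
        rw [← strat_eq, ← hx] at hg
        obtain ⟨g1, g2, g3, g4⟩ := hg
        have hleg : Legal D x (2 * k) := by
          refine ⟨g1, fun j hj e => ?_⟩
          rcases mem_of_lt x k j hj with h' | h'
          · exact g2 (e ▸ h')
          · exact g3 (e ▸ h')
        have hM : Mset x (k + 1) = insert (x (2 * k)) (Mset x k) := by
          ext c
          constructor
          · rintro ⟨j, hj, e⟩
            by_cases hjk : j = k
            · subst hjk
              exact Or.inl e.symm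
            · exact Or.inr ⟨j, by omega, e⟩
          · rintro (e | ⟨j, hj, e⟩)
            · exact ⟨k, by omega, e.symm⟩
            · exact ⟨j, by omega, e⟩
        rcases g4 with g4 | g4
        · refine Or.inl ⟨k + 1, le_rfl, fun i hi => ?_, hM ▸ g4⟩
          by_cases hik : i = 2 * k
          · exact hik ▸ hleg
          · exact hl i (by omega)
        · have hlb : Legal D x (2 * k + 1) := hb k (hD x (2 * k + 1) (by omega))
          refine Or.inr ⟨fun i hi => ?_, ?_⟩
          · by_cases hik : i = 2 * k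
            · exact hik ▸ hleg
            · by_cases hik' : i = 2 * k + 1
              · exact hik' ▸ hlb
              · exact hl i (by omega)
          · have hq : x (2 * k + 1) ∉ insert (x (2 * k)) (Mset x k) := by
              rw [← hM]
              rintro ⟨j, hj, e⟩
              exact hlb.2 _ (by omega) e
            have := g4 _ hq
            rw [← hM] at this
            have e2 : N - (k + 1) = N - k - 1 := by omega
            rw [e2]
            refine W.mono HasCopy.mono _ _ _ _ _ subset_rfl ?_ this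
            rintro c ⟨⟨hc1, hc2⟩, hc3⟩
            refine ⟨hc1, ?_⟩
            rintro ⟨j, hj, e⟩
            by_cases hjk : j = k
            · subst hjk
              exact hc3 e.symm
            · exact hc2 ⟨j, by omega, e⟩
  rcases key N le_rfl with ⟨n, hn, h1, C, hC, hC2⟩ | ⟨_, hw⟩
  · exact ⟨n, hn, h1, C, hC, fun c hc => hC2 hc⟩
  · rw [Nat.sub_self] at hw
    exact hw.elim

end Vale.Agent.P062
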