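import Mathlib.Data.Nat.Bitwise
import Mathlib.Tactic.Ring
import Mathlib.Data.Finset.Prod
import Vale.Agent.P062.Game

namespace Vale.Agent.P062

/-- The eight orientations of Snaky in the linear encoding `x + 32 y`. -/
def offs : List (List ℕ) :=
  [[0, 1, 2, 3, 35, 36], [29, 30, 31, 32, 0, 1], [3, 2, 1, 0, 32, 31], [36, 35, 34, 33, 1, 0],
   [0, 32, 64, 96, 97, 129], [127, 95, 63, 31, 32, 0], [0, 32, 64, 96, 95, 127],
   [129, 97, 65, 33, 32, 0]]

def H1 (M : Set ℕ) : Prop := ∃ t : ℕ, ∃ o ∈ offs, ∀ a ∈ o, a + t ∈ M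

theorem H1.mono (M M' : Set ℕ) (h : M ⊆ M') : H1 M → H1 M' :=
  fun ⟨t, o, ho, h2⟩ => ⟨t, o, ho, fun a ha => h (h2 a ha)⟩

def S (m : ℕ) : Set ℕ := {i | m.testBit i = true}

theorem W_shift (s h : ℕ) (A T : ℕ) (w : W H1 h (S A) (S T)) (M F : Set ℕ)
    (hM : S (A <<< s) ⊆ M) (hF : S (T <<< s) ⊆ F) : W H1 h M F := by
  have key : ∀ m : ℕ, (fun i => i + s) '' S m ⊆ S (m <<< s) := by
    rintro m _ ⟨i, hi, rfl⟩
    simpa [S, Nat.testBit_shiftLeft] using hi
  have := W.map (H := H1) (K := H1) (fun i => i + s) (fun a b h => by simpa using h) Set.univ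
    (by
      rintro M - ⟨t, o, ho, h2⟩
      exact ⟨t + s, o, ho, fun a ha => ⟨a + t, h2 a ha, by simp [Nat.add_assoc]⟩⟩)
    h _ _ (Set.subset_univ _) (Set.subset_univ _) w
  exact W.mono H1.mono _ _ _ _ _ ((key A).trans hM) ((key T).trans hF) this

def sub (a b : ℕ) : Bool := Nat.beq (Nat.lor a b) b

theorem sub_spec {a b : ℕ} (h : sub a b = true) : S a ⊆ S b := by
  intro i hi
  have e : a ||| b = b := Nat.eq_of_beq_eq_true h
  have : (a ||| b).testBit i = true := by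
    rw [Nat.testBit_or]
    simp only [S, Set.mem_ofPred_eq] at hi
    simp [hi]
  rwa [e] at this

theorem S_ins (A p : ℕ) : S (Nat.lor A (Nat.shiftLeft 1 p)) ⊆ insert p (S A) := by
  intro i hi
  have hi' : (A ||| (1 <<< p)).testBit i = true := hi
  rw [Nat.testBit_or, Nat.one_shiftLeft, Nat.testBit_two_pow] at hi'
  by_cases h : p = i
  · exact Or.inl h.symm
  · right
    simpa [h, S] using hi'

inductive Tr : Type
  | nil : Tr
  | node : Tr → ℕ → Tr → Tr

noncomputable def Tr.get (t : Tr) : ℕ → ℕ :=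
  Tr.rec (fun _ => 0) (fun _ c _ ihl ihr i =>
    cond (Nat.beq i 1) c (cond (Nat.beq (Nat.mod i 2) 0) (ihl (Nat.div i 2)) (ihr (Nat.div i 2)))) t

noncomputable def Tr.all (f : ℕ → Bool) (t : Tr) : Bool :=
  Tr.rec true (fun _ c _ ihl ihr => and (f c) (and ihl ihr)) t

theorem Tr.all_node (f : ℕ → Bool) (l r : Tr) (c : ℕ) (h1 : f c = true) (h2 : l.all f = true)
    (h3 : r.all f = true) : (Tr.node l c r).all f = true := by
  show and (f c) (and (l.all f) (r.all f)) = true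
  simp [h1, h2, h3]

theorem Tr.get_spec (f : ℕ → Bool) (t : Tr) : t.all f = true → ∀ i, t.get i = 0 ∨ f (t.get i) = true := by
  induction t with
  | nil => intro _ _; exact Or.inl rfl
  | node l c r ihl ihr =>
    intro h i
    have h' : and (f c) (and (l.all f) (r.all f)) = true := h
    simp only [Bool.and_eq_true] at h'
    show cond (Nat.beq i 1) c (cond (Nat.beq (Nat.mod i 2) 0) (l.get (Nat.div i 2)) (r.get (Nat.div i 2))) = 0 ∨
      f (cond (Nat.beq i 1) c (cond (Nat.beq (Nat.mod i 2) 0) (l.get (Nat.div i 2)) (r.get (Nat.div i 2)))) = true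
    cases Nat.beq i 1
    · cases Nat.beq (Nat.mod i 2) 0
      · exact ihr h'.2.2 _
      · exact ihl h'.2.1 _
    · exact Or.inr h'.1

def cL (c : ℕ) : ℕ := Nat.mod c 1024
def cH (c : ℕ) : ℕ := Nat.mod (Nat.shiftRight c 10) 64
def cP (c : ℕ) : ℕ := Nat.mod (Nat.shiftRight c 16) 1024
def cT (c : ℕ) : ℕ := Nat.mod (Nat.shiftRight c 26) (Nat.pow 2 (cL c))
def cA (c : ℕ) : ℕ := Nat.mod (Nat.shiftRight c (Nat.add 26 (cL c))) (Nat.pow 2 (cL c))
def cC (c : ℕ) : ℕ := Nat.shiftRight c (Nat.add 26 (Nat.mul 2 (cL c)))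

def G (c : ℕ) : Prop := W H1 (cH c) (S (cA c)) (S (cT c))

/-- check of one child -/
def okc (A T h d s : ℕ) : Bool :=
  and (Nat.ble 1 (cH d)) (and (Nat.ble (Nat.succ (cH d)) h)
    (and (sub (Nat.shiftLeft (cA d) s) A) (sub (Nat.shiftLeft (cT d) s) T)))

noncomputable def chk (t : Tr) (A T h : ℕ) (fuel : ℕ) : ℕ → ℕ → Bool :=
  Nat.rec (fun _ _ => false) (fun _ ih x I =>
    cond (Nat.beq x 0) (sub I A)
      (and (okc A T h (t.get (Nat.mod x 65536)) (Nat.mod (Nat.shiftRight x 16) 1024))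
        (ih (Nat.shiftRight x 26)
          (Nat.land I (Nat.shiftLeft (cT (t.get (Nat.mod x 65536))) (Nat.mod (Nat.shiftRight x 16) 1024))))))
    fuel

def base (A : ℕ) : Bool := offs.any fun o => o.all fun a => A.testBit a

noncomputable def check (t : Tr) (c : ℕ) : Bool :=
  and (Nat.ble 1 (cH c)) (and ((cT c).testBit (cP c))
    (cond (Nat.beq (cC c) 0) (base (Nat.lor (cA c) (Nat.shiftLeft 1 (cP c))))
      (chk t (Nat.lor (cA c) (Nat.shiftLeft 1 (cP c))) (cT c) (cH c) 64 (cC c) (cT c))))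

theorem okc_spec {A T h d s : ℕ} (hG : 1 ≤ cH d → cH d < h → G d) (ho : okc A T h d s = true) :
    ∀ F : Set ℕ, S (Nat.shiftLeft (cT d) s) ⊆ F → W H1 (h - 1) (S A) F := by
  intro F hF
  simp only [okc, Bool.and_eq_true] at ho
  obtain ⟨h1, h2, h3, -⟩ := ho
  have h1' : 1 ≤ cH d := Nat.le_of_ble_eq_true h1
  have h2' : cH d < h := Nat.le_of_ble_eq_true h2
  exact W.le (by omega) (W_shift s _ _ _ (hG h1' h2') _ _ (sub_spec h3) hF)

theorem okc_sub {A T h d s : ℕ} (ho : okc A T h d s = true) : S (Nat.shiftLeft (cT d) s) ⊆ S T := by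
  simp only [okc, Bool.and_eq_true] at ho
  exact sub_spec ho.2.2.2

theorem chk_spec (t : Tr) (A T h : ℕ) (hG : ∀ i, 1 ≤ cH (t.get i) → cH (t.get i) < h → G (t.get i)) :
    ∀ (fuel x I : ℕ), chk t A T h fuel x I = true →
      (x ≠ 0 → W H1 (h - 1) (S A) (S T)) ∧
      ∀ q ∈ S I, q ∉ S A → W H1 (h - 1) (S A) (S T \ {q}) := by
  intro fuel
  induction fuel with
  | zero => intro x I hc; exact absurd hc (by simp [chk])
  | succ n ih =>
    intro x I hc
    have hc' : cond (Nat.beq x 0) (sub I A)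
      (and (okc A T h (t.get (Nat.mod x 65536)) (Nat.mod (Nat.shiftRight x 16) 1024))
        (chk t A T h n (Nat.shiftRight x 26)
          (Nat.land I (Nat.shiftLeft (cT (t.get (Nat.mod x 65536)))
            (Nat.mod (Nat.shiftRight x 16) 1024))))) = true := hc
    cases hx : Nat.beq x 0
    · rw [hx] at hc'
      simp only [cond_false, Bool.and_eq_true] at hc'
      obtain ⟨ho, hr⟩ := hc'
      refine ⟨fun _ => okc_spec (hG _) ho _ (okc_sub ho), fun q hq hqA => ?_⟩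
      by_cases hqT : q ∈ S (Nat.shiftLeft (cT (t.get (Nat.mod x 65536)))
          (Nat.mod (Nat.shiftRight x 16) 1024))
      · refine (ih _ _ hr).2 q ?_ hqA
        show Nat.testBit (_ &&& _) q = true
        rw [Nat.testBit_and]
        simp only [S, Set.mem_ofPred_eq] at hq hqT
        simp only [Bool.and_eq_true]
        exact ⟨hq, hqT⟩
      · refine okc_spec (hG _) ho _ ?_
        intro i hi
        refine ⟨okc_sub ho hi, ?_⟩
        rintro rfl
        exact hqT hi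
    · rw [hx] at hc'
      refine ⟨fun h0 => absurd (Nat.eq_of_beq_eq_true hx) h0, fun q hq hqA => ?_⟩
      exact absurd (sub_spec hc' hq) hqA

theorem check_spec (t : Tr) (ht : t.all (check t) = true) :
    ∀ (n c : ℕ), cH c ≤ n → check t c = true → G c := by
  intro n
  induction n with
  | zero =>
    intro c hn hc
    simp only [check, Bool.and_eq_true] at hc
    have := Nat.le_of_ble_eq_true hc.1
    omega
  | succ n ih =>
    intro c hn hc
    simp only [check, Bool.and_eq_true] at hc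
    obtain ⟨h1, h2, h3⟩ := hc
    have h1' : 1 ≤ cH c := Nat.le_of_ble_eq_true h1
    have e : cH c = (cH c - 1) + 1 := by omega
    unfold G
    rw [e]
    refine ⟨cP c, h2, ?_⟩
    cases hx : Nat.beq (cC c) 0
    · rw [hx, cond_false] at h3
      right
      have hG : ∀ i, 1 ≤ cH (t.get i) → cH (t.get i) < cH c → G (t.get i) := by
        intro i a b
        rcases t.get_spec _ ht i with h0 | h0
        · rw [h0] at a
          exact absurd a (by decide)
        · exact ih _ (by omega) h0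
      obtain ⟨k1, k2⟩ := chk_spec t _ _ _ hG _ _ _ h3
      have hne : cC c ≠ 0 := Nat.ne_of_beq_eq_false hx
      have k1' := W.mono H1.mono _ _ _ _ _ (S_ins _ _) subset_rfl (k1 hne)
      refine ⟨k1', fun q hq => ?_⟩
      by_cases hqT : q ∈ S (cT c)
      · exact W.mono H1.mono _ _ _ _ _ (S_ins _ _) subset_rfl
          (k2 q hqT fun h' => hq (S_ins _ _ h'))
      · rwa [Set.sdiff_singleton_eq_self hqT]
    · rw [hx] at h3
      left
      simp only [cond_true, base, List.any_eq_true, List.all_eq_true] at h3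
      obtain ⟨o, ho, h4⟩ := h3
      exact ⟨0, o, ho, fun a ha => S_ins _ _ (h4 a ha)⟩

/-- decoding of the linear index -/
def dec (i : ℕ) : ℤ × ℤ := (((i % 32 : ℕ) : ℤ), ((i / 32 : ℕ) : ℤ))

theorem dec_inj : Function.Injective dec := by
  intro a b h
  simp only [dec, Prod.mk.injEq] at h
  omega

theorem lift_aux (M : Set ℕ) (t : ℕ) (f : ℤ × ℤ → ℤ × ℤ) (a0 a1 a2 a3 a4 a5 : ℕ)
    (h : ∀ a ∈ [a0, a1, a2, a3, a4, a5], a + t ∈ M)
    (e0 : dec (a0 + t) = f (0, 0)) (e1 : dec (a1 + t) = f (1, 0)) (e2 : dec (a2 + t) = f (2, 0))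
    (e3 : dec (a3 + t) = f (3, 0)) (e4 : dec (a4 + t) = f (3, 1)) (e5 : dec (a5 + t) = f (4, 1)) :
    f '' snaky ⊆ dec '' M := by
  rintro _ ⟨c, hc, rfl⟩
  simp only [snaky, Set.mem_insert_iff, Set.mem_singleton_iff] at hc
  rcases hc with rfl | rfl | rfl | rfl | rfl | rfl
  · exact ⟨_, h a0 (by simp), e0⟩
  · exact ⟨_, h a1 (by simp), e1⟩
  · exact ⟨_, h a2 (by simp), e2⟩
  · exact ⟨_, h a3 (by simp), e3⟩
  · exact ⟨_, h a4 (by simp), e4⟩
  · exact ⟨_, h a5 (by simp), e5⟩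

theorem lift (M : Set ℕ) (hM : M ⊆ {i | i % 32 < 28}) (h : H1 M) : HasCopy (dec '' M) := by
  obtain ⟨t, o, ho, h2⟩ := h
  have h3 : ∀ a ∈ o, (a + t) % 32 < 28 := fun a ha => hM (h2 a ha)
  simp only [offs, List.mem_cons, List.not_mem_nil, or_false] at ho
  rcases ho with rfl | rfl | rfl | rfl | rfl | rfl | rfl | rfl
  all_goals
    simp only [List.mem_cons, List.not_mem_nil, or_false, forall_eq_or_imp, forall_eq] at h3
    obtain ⟨b0, b1, b2, b3, b4, b5⟩ := h3
  · refine ⟨_, ⟨dec (0 + t), 1, 1, Or.inl rfl, Or.inl rfl, Or.inl rfl⟩, ?_⟩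
    apply lift_aux M t _ _ _ _ _ _ _ h2 <;> simp only [dec, Prod.mk.injEq] <;> omega
  · refine ⟨_, ⟨dec (29 + t), 1, -1, Or.inl rfl, Or.inr rfl, Or.inl rfl⟩, ?_⟩
    apply lift_aux M t _ _ _ _ _ _ _ h2 <;> simp only [dec, Prod.mk.injEq] <;> omega
  · refine ⟨_, ⟨dec (3 + t), -1, 1, Or.inr rfl, Or.inl rfl, Or.inl rfl⟩, ?_⟩
    apply lift_aux M t _ _ _ _ _ _ _ h2 <;> simp only [dec, Prod.mk.injEq] <;> omega
  · refine ⟨_, ⟨dec (36 + t), -1, -1, Or.inr rfl, Or.inr rfl, Or.inl rfl⟩, ?_⟩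
    apply lift_aux M t _ _ _ _ _ _ _ h2 <;> simp only [dec, Prod.mk.injEq] <;> omega
  · refine ⟨_, ⟨dec (0 + t), 1, 1, Or.inl rfl, Or.inl rfl, Or.inr rfl⟩, ?_⟩
    apply lift_aux M t _ _ _ _ _ _ _ h2 <;> simp only [dec, Prod.mk.injEq] <;> omega
  · refine ⟨_, ⟨dec (127 + t), 1, -1, Or.inl rfl, Or.inr rfl, Or.inr rfl⟩, ?_⟩
    apply lift_aux M t _ _ _ _ _ _ _ h2 <;> simp only [dec, Prod.mk.injEq] <;> omega
  · refine ⟨_, ⟨dec (0 + t), -1, 1, Or.inr rfl, Or.inl rfl, Or.inr rfl⟩, ?_⟩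
    apply lift_aux M t _ _ _ _ _ _ _ h2 <;> simp only [dec, Prod.mk.injEq] <;> omega
  · refine ⟨_, ⟨dec (129 + t), -1, -1, Or.inr rfl, Or.inr rfl, Or.inr rfl⟩, ?_⟩
    apply lift_aux M t _ _ _ _ _ _ _ h2 <;> simp only [dec, Prod.mk.injEq] <;> omega

def boxOk (T w : ℕ) : Bool :=
  and (Nat.blt T (Nat.pow 2 (Nat.mul 32 w)))
    ((List.range (Nat.mul 32 w)).all fun i => or (not (T.testBit i)) (Nat.blt (Nat.mod i 32) w))

theorem final (t : Tr) (ht : t.all (check t) = true) (N w : ℕ) (hw : w ≤ 28)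
    (h0 : 1 ≤ cH (t.get 1)) (h1 : cH (t.get 1) ≤ N) (h2 : cA (t.get 1) = 0)
    (h3 : boxOk (cT (t.get 1)) w = true) :
    W HasCopy N ∅ {p : ℤ × ℤ | 0 ≤ p.1 ∧ p.1 < w ∧ 0 ≤ p.2 ∧ p.2 < w} := by
  have hc : check t (t.get 1) = true := by
    rcases t.get_spec _ ht 1 with h | h
    · rw [h] at h0
      exact absurd h0 (by decide)
    · exact h
  have g := check_spec t ht _ _ le_rfl hc
  unfold G at g
  rw [h2] at g
  simp only [boxOk, Bool.and_eq_true, List.all_eq_true, List.mem_range, Bool.or_eq_true] at h3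
  obtain ⟨h3, h4⟩ := h3
  have h3' : cT (t.get 1) < 2 ^ (32 * w) := by simpa [Nat.blt_eq] using h3
  have hb : ∀ i ∈ S (cT (t.get 1)), i < 32 * w ∧ i % 32 < w := by
    intro i hi
    have hi' : (cT (t.get 1)).testBit i = true := hi
    have hlt : i < 32 * w := by
      by_contra hge
      have : (cT (t.get 1)).testBit i = false :=
        Nat.testBit_lt_two_pow (lt_of_lt_of_le h3' (Nat.pow_le_pow_right (by decide) (by omega)))
      rw [this] at hi'
      exact absurd hi' (by decide)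
    refine ⟨hlt, ?_⟩
    rcases h4 i hlt with h | h
    · rw [hi'] at h
      exact absurd h (by decide)
    · exact Nat.blt_eq.mp h
  have hS0 : S 0 = ∅ := by
    ext i
    simp [S]
  rw [hS0] at g
  have := W.map dec dec_inj {i | i % 32 < 28} lift _ _ _ (Set.empty_subset _)
    (fun i hi => lt_of_lt_of_le (hb i hi).2 hw) g
  rw [Set.image_empty] at this
  refine W.le h1 (W.mono HasCopy.mono _ _ _ _ _ subset_rfl ?_ this)
  rintro _ ⟨i, hi, rfl⟩
  have := hb i hi
  simp only [dec, Set.mem_ofPred_eq]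
  omega

theorem free_cell (N w : ℕ) (hN : 2 * N ≤ w * w) (x : ℕ → ℤ × ℤ) (m : ℕ) (hm : m < 2 * N) :
    ∃ q ∈ {p : ℤ × ℤ | 0 ≤ p.1 ∧ p.1 < w ∧ 0 ≤ p.2 ∧ p.2 < w}, ∀ j < m, x j ≠ q := by
  classical
  have hinj : Function.Injective (fun p : ℕ × ℕ => ((p.1 : ℤ), (p.2 : ℤ))) := by
    intro a b h
    simp only [Prod.mk.injEq, Nat.cast_inj] at h
    exact Prod.ext h.1 h.2
  have hc : ((Finset.range m).image x).card <
      ((Finset.range w ×ˢ Finset.range w).image (fun p : ℕ × ℕ => ((p.1 : ℤ), (p.2 : ℤ)))).card := by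
    rw [Finset.card_image_of_injective _ hinj, Finset.card_product, Finset.card_range]
    have := Finset.card_image_le (s := Finset.range m) (f := x)
    rw [Finset.card_range] at this
    omega
  obtain ⟨q, hq1, hq2⟩ := Finset.exists_mem_notMem_of_card_lt_card hc
  simp only [Finset.mem_image, Finset.mem_product, Finset.mem_range, not_exists, not_and] at hq1 hq2
  obtain ⟨a, ⟨ha1, ha2⟩, rfl⟩ := hq1
  refine ⟨_, ?_, fun j hj => hq2 j hj⟩
  simp only [Set.mem_ofPred_eq]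
  omega

theorem wins_of_cert (t : Tr) (ht : t.all (check t) = true) (N w : ℕ) (hw : w ≤ 28)
    (hN : 2 * N ≤ w * w)
    (h0 : 1 ≤ cH (t.get 1)) (h1 : cH (t.get 1) ≤ N) (h2 : cA (t.get 1) = 0)
    (h3 : boxOk (cT (t.get 1)) w = true) :
    MakerWinsWithin Set.univ N ∧
      MakerWinsWithin {p : ℤ × ℤ | 0 ≤ p.1 ∧ p.1 < w ∧ 0 ≤ p.2 ∧ p.2 < w} N := by
  have g := final t ht N w hw h0 h1 h2 h3
  refine ⟨makerWins_of_W _ _ (fun x m hm => ?_)
    (W.mono HasCopy.mono _ _ _ _ _ subset_rfl (Set.subset_univ _) g),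
    makerWins_of_W _ _ (free_cell N w hN) g⟩
  obtain ⟨q, -, hq⟩ := free_cell N w hN x m hm
  exact ⟨q, trivial, hq⟩

end Vale.Agent.P062
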